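import Vale.Agent.P097.H983.Har
import Vale.Agent.P097.H434.R2n
import Vale.Agent.P097.H505.OneType
import Vale.Agent.P097.TC.Defs5

/-!
# P097 / case [c] / block (N): a point nested at ONE level without R2 points is a nested point of A5

`r2free`: near a horizontal line without zeros of the derivative, the derivative is bounded below.
`exists_level`: there are such lines.
`mid_lower`: Harnack from a point of the horizontal segment to the point on the vertical.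
`nst_of_nest`: the literal structure `A5.Nst`, with constants which depend only on the curve and the
level.
-/

set_option linter.all false

open Complex Metric Filter Topology Set MeasureTheory
open scoped ComplexConjugate

namespace Vale.Agent.P097.H365.N

open Vale.Agent.P097.TC

variable {H v : ℝ} {F : ℂ → ℂ}

theorem isOpen_Sb (H : ℝ) : IsOpen (Sb H) :=
  isOpen_lt (continuous_im.abs) continuous_const

/-- the derivative of the normal angle is periodic -/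
theorem deriv_per (hp : ∀ x ∈ Sb H, F (x + 1) = F x + 2 * Real.pi) {x : ℂ} (hx : x ∈ Sb H) :
    deriv F (x + 1) = deriv F x := by
  have h1 : (fun y => F (y + 1)) =ᶠ[𝓝 x] fun y => F y + 2 * Real.pi := by
    filter_upwards [(isOpen_Sb H).mem_nhds hx] with y hy
    exact hp y hy
  have h2 := h1.deriv_eq
  rw [deriv_comp_add_const, deriv_add_const] at h2
  exact h2

theorem mem_add_int {x : ℂ} (hx : x ∈ Sb H) (n : ℤ) : x + n ∈ Sb H := by
  simpa [Sb] using hx

theorem deriv_per_nat (hp : ∀ x ∈ Sb H, F (x + 1) = F x + 2 * Real.pi) {x : ℂ} (hx : x ∈ Sb H)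
    (n : ℕ) : deriv F (x + n) = deriv F x := by
  induction n with
  | zero => simp
  | succ k ih =>
    have : x + (k : ℂ) ∈ Sb H := by
      have := mem_add_int hx (k : ℤ)
      simpa using this
    rw [← ih, ← deriv_per hp this]
    congr 1
    push_cast
    ring

theorem deriv_per_int (hp : ∀ x ∈ Sb H, F (x + 1) = F x + 2 * Real.pi) {x : ℂ} (hx : x ∈ Sb H)
    (n : ℤ) : deriv F (x + n) = deriv F x := by
  rcases le_or_gt 0 n with h | h
  · obtain ⟨k, rfl⟩ := Int.eq_ofNat_of_zero_le h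
    exact_mod_cast deriv_per_nat hp hx k
  · obtain ⟨k, hk⟩ := Int.eq_ofNat_of_zero_le (neg_nonneg.2 h.le)
    have hn : n = -(k : ℤ) := by rw [← hk]; ring
    subst hn
    have h1 := deriv_per_nat hp (mem_add_int hx (-(k : ℤ))) k
    rw [← h1]
    congr 1
    push_cast
    ring

/-- near a horizontal line without zeros of `F'`, `F'` is bounded below -/
theorem r2free (dF : DifferentiableOn ℂ F (Sb H)) (hp : ∀ x ∈ Sb H, F (x + 1) = F x + 2 * Real.pi)
    (hv : |v| < H) (h0 : ∀ x : ℂ, x.im = v → deriv F x ≠ 0) :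
    ∃ ε > 0, ∃ c > 0, |v| + ε < H ∧ ∀ x : ℂ, |x.im - v| ≤ ε → c ≤ ‖deriv F x‖ := by
  have dF' : ContinuousOn (deriv F) (Sb H) := (dF.deriv (isOpen_Sb H)).continuousOn
  set K0 : Set ℂ := Icc (0 : ℝ) 1 ×ℂ {v} with hK0
  have hKc : IsCompact K0 := isCompact_Icc.reProdIm isCompact_singleton
  have hKs : K0 ⊆ Sb H := by
    intro x hx
    rw [hK0, mem_reProdIm] at hx
    have : x.im = v := hx.2
    simp only [Sb, mem_setOf_eq, this]
    exact hv
  have hKn : K0.Nonempty := ⟨(v : ℂ) * I, by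
    rw [hK0, mem_reProdIm]
    simp⟩
  obtain ⟨x₀, hx₀, hmin⟩ := hKc.exists_isMinOn hKn ((dF'.mono hKs).norm)
  set m : ℝ := ‖deriv F x₀‖ with hm
  have m0 : 0 < m := by
    rw [hK0, mem_reProdIm] at hx₀
    exact norm_pos_iff.2 (h0 x₀ hx₀.2)
  have hUo : IsOpen (Sb H ∩ (fun x => ‖deriv F x‖) ⁻¹' (Ioi (m / 2))) :=
    dF'.norm.isOpen_inter_preimage (isOpen_Sb H) isOpen_Ioi
  have hKU : K0 ⊆ Sb H ∩ (fun x => ‖deriv F x‖) ⁻¹' (Ioi (m / 2)) := by
    intro x hx
    refine ⟨hKs hx, ?_⟩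
    have : m ≤ ‖deriv F x‖ := hmin hx
    simp only [mem_preimage, mem_Ioi]
    linarith
  obtain ⟨δ, δ0, hδ⟩ := hKc.exists_thickening_subset_open hUo hKU
  refine ⟨min (δ / 2) ((H - |v|) / 2), lt_min (by positivity) (by linarith), m / 2, by positivity,
    ?_, ?_⟩
  · have := min_le_right (δ / 2) ((H - |v|) / 2)
    linarith
  · intro x hx
    have hx1 : |x.im - v| ≤ δ / 2 := hx.trans (min_le_left _ _)
    have hx2 : |x.im - v| ≤ (H - |v|) / 2 := hx.trans (min_le_right _ _)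
    have hxS : x ∈ Sb H := by
      simp only [Sb, mem_setOf_eq]
      have : |x.im| ≤ |x.im - v| + |v| := by
        have := abs_add_le (x.im - v) v
        simpa using this
      linarith
    set n : ℤ := ⌊x.re⌋ with hn
    have h3 := deriv_per_int hp hxS (-n)
    rw [← h3]
    have hfl := Int.floor_le x.re
    have hfl2 := Int.lt_floor_add_one x.re
    have hmem : x + ((-n : ℤ) : ℂ) ∈ thickening δ K0 := by
      rw [mem_thickening_iff]
      refine ⟨⟨x.re - n, v⟩, ?_, ?_⟩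
      · rw [hK0, mem_reProdIm]
        refine ⟨⟨by simp; linarith, by simp; linarith⟩, rfl⟩
      · rw [dist_eq_norm]
        have : x + ((-n : ℤ) : ℂ) - ⟨x.re - n, v⟩ = ((x.im - v : ℝ) : ℂ) * I := by
          apply Complex.ext <;> simp
        rw [this, norm_mul, Complex.norm_real, Complex.norm_I, mul_one, Real.norm_eq_abs]
        linarith
    exact (hδ hmem).2.le

/-- there are levels without R2 points -/
theorem exists_level {Λ : ℝ} {q : ℂ → ℂ} (hC : Cv Λ H F q) {v₁ v₂ : ℝ} (h : v₁ < v₂) (h1 : -H ≤ v₁)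
    (h2 : v₂ ≤ H) : ∃ v ∈ Ioo v₁ v₂, |v| < H ∧ ∀ x : ℂ, x.im = v → deriv F x ≠ 0 := by
  have hc := (H434.countable_R2 hC).image Complex.im
  have hnc : ¬ (Ioo v₁ v₂).Countable := by
    rw [← Cardinal.le_aleph0_iff_set_countable, Cardinal.mk_Ioo_real h]
    exact not_le.2 Cardinal.aleph0_lt_continuum
  have : ¬ Ioo v₁ v₂ ⊆ Complex.im '' {x | x ∈ Sb H ∧ deriv F x = 0} :=
    fun hs => hnc (hc.mono hs)
  obtain ⟨v, hv, hv2⟩ := not_subset.1 this
  have hvH : |v| < H := abs_lt.2 ⟨by linarith [hv.1], by linarith [hv.2]⟩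
  refine ⟨v, hv, hvH, fun x hx hx0 => hv2 ⟨x, ⟨?_, hx0⟩, hx⟩⟩
  simp only [Sb, mem_setOf_eq, hx]
  exact hvH

/-- Harnack: from a point of the horizontal segment to the point over the vertical -/
theorem harn {g : ℂ → ℂ} {b t0 y x s R : ℝ}
    (hd : DifferentiableOn ℂ g {t | b < t.im ∧ t.im < t0})
    (hp : ∀ t : ℂ, b < t.im → t.im < t0 → 0 < (g t).re) (hR : 0 ≤ R) (hs : 0 < s)
    (hx : |x - y| ≤ R * s) (hb : b < t0 - 2 * ((R ^ 2 + 1) * s)) :
    (g ((x : ℂ) + ((t0 - s : ℝ) : ℂ) * I)).re / (8 * (R ^ 2 + 1) ^ 2) ≤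
      (g ((y : ℂ) + ((t0 - s : ℝ) : ℂ) * I)).re := by
  set D : ℝ := (R ^ 2 + 1) * s with hD
  have D0 : 0 < D := by positivity
  have Ds : s ≤ D := by
    have : 0 ≤ R ^ 2 * s := by positivity
    rw [hD]; linarith
  set c : ℂ := (y : ℂ) + ((t0 - D : ℝ) : ℂ) * I with hc
  have hball : ball c D ⊆ {t | b < t.im ∧ t.im < t0} := by
    intro t ht
    rw [mem_ball, dist_eq_norm] at ht
    have h1 : |(t - c).im| < D := (abs_im_le_norm _).trans_lt ht
    have h2 : (t - c).im = t.im - (t0 - D) := by simp [hc]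
    rw [h2, abs_lt] at h1
    exact ⟨by linarith [h1.1], by linarith [h1.2]⟩
  have hgd := hd.mono hball
  have hgp : ∀ t ∈ ball c D, 0 < (g t).re := fun t ht => hp t (hball ht).1 (hball ht).2
  set zy : ℂ := (y : ℂ) + ((t0 - s : ℝ) : ℂ) * I with hzy
  set zx : ℂ := (x : ℂ) + ((t0 - s : ℝ) : ℂ) * I with hzx
  have ny : ‖zy - c‖ = D - s := by
    have : zy - c = ((D - s : ℝ) : ℂ) * I := by
      rw [hzy, hc]; push_cast; ring
    rw [this, norm_mul, Complex.norm_real, Complex.norm_I, mul_one, Real.norm_eq_abs,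
      abs_of_nonneg (by linarith)]
  have nx : ‖zx - c‖ ≤ D - s / 2 := by
    have h1 : ‖zx - c‖ ^ 2 = (x - y) ^ 2 + (D - s) ^ 2 := by
      rw [← Complex.normSq_eq_norm_sq, Complex.normSq_apply]
      have e1 : (zx - c).re = x - y := by simp [hzx, hc]
      have e2 : (zx - c).im = D - s := by simp [hzx, hc]
      rw [e1, e2]; ring
    have h2 : (x - y) ^ 2 ≤ (R * s) ^ 2 := by
      rw [← sq_abs (x - y)]
      exact pow_le_pow_left₀ (abs_nonneg _) hx 2
    have h3 : ‖zx - c‖ ^ 2 ≤ (D - s / 2) ^ 2 := by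
      rw [h1]
      have : (R * s) ^ 2 + s ^ 2 = D * s := by rw [hD]; ring
      nlinarith
    exact (pow_le_pow_iff_left₀ (norm_nonneg _) (by linarith) two_ne_zero).1 h3
  have hy := (H983.harnack2 hgd hgp (z := zy) (by rw [ny]; linarith)).1
  have hx' := (H983.harnack2 hgd hgp (z := zx) (by linarith)).2
  have gc : 0 < (g c).re := hgp c (mem_ball_self D0)
  have gx : 0 < (g zx).re := hgp zx (by rw [mem_ball, dist_eq_norm]; linarith)
  have gy : 0 < (g zy).re := hgp zy (by rw [mem_ball, dist_eq_norm, ny]; linarith)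
  rw [ny] at hy
  have k1 : s * (g c).re ≤ 2 * D * (g zy).re := by nlinarith
  have k2 : s / 2 * (g zx).re ≤ 2 * D * (g c).re := by nlinarith [norm_nonneg (zx - c)]
  rw [div_le_iff₀ (by positivity)]
  have k3 : s ^ 2 * (g zx).re ≤ s ^ 2 * ((g zy).re * (8 * (R ^ 2 + 1) ^ 2)) := by
    have : s ^ 2 * ((g zy).re * (8 * (R ^ 2 + 1) ^ 2)) = 8 * D ^ 2 * (g zy).re := by
      rw [hD]; ring
    rw [this]
    nlinarith
  exact le_of_mul_le_mul_left k3 (by positivity)

/-- Harnack for strip valued functions -/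
theorem mid_lower {θ : ℂ → ℂ} {b t0 y x s R : ℝ}
    (hd : DifferentiableOn ℂ θ {t | b < t.im ∧ t.im < t0})
    (hm : ∀ t : ℂ, b < t.im → t.im < t0 → θ t ∈ Sb H) (hR : 0 ≤ R) (hs : 0 < s)
    (hx : |x - y| ≤ R * s) (hb : b < t0 - 2 * ((R ^ 2 + 1) * s)) :
    |(θ ((y : ℂ) + ((t0 - s : ℝ) : ℂ) * I)).im| ≤
      H - (H - |(θ ((x : ℂ) + ((t0 - s : ℝ) : ℂ) * I)).im|) / (8 * (R ^ 2 + 1) ^ 2) := by
  have h1 := harn (g := fun t => (H : ℂ) + I * θ t) ((hd.const_mul I).const_add _)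
    (fun t h1 h2 => by
      have := hm t h1 h2
      simp only [Sb, mem_setOf_eq, abs_lt] at this
      simp
      linarith [this.2]) hR hs hx hb
  have h2 := harn (g := fun t => (H : ℂ) - I * θ t) ((hd.const_mul I).const_sub _)
    (fun t h1 h2 => by
      have := hm t h1 h2
      simp only [Sb, mem_setOf_eq, abs_lt] at this
      simp
      linarith [this.1]) hR hs hx hb
  simp only [add_re, sub_re, ofReal_re, mul_re, I_re, I_im, zero_mul, one_mul, zero_sub,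
    sub_neg_eq_add] at h1 h2
  set X : ℝ := (θ ((x : ℂ) + ((t0 - s : ℝ) : ℂ) * I)).im with hX
  set Y : ℝ := (θ ((y : ℂ) + ((t0 - s : ℝ) : ℂ) * I)).im with hY
  have K0 : 0 < 8 * (R ^ 2 + 1) ^ 2 := by positivity
  have h3 : (H - |X|) / (8 * (R ^ 2 + 1) ^ 2) ≤ (H + -X) / (8 * (R ^ 2 + 1) ^ 2) :=
    div_le_div_of_nonneg_right (by linarith [le_abs_self X]) K0.le
  have h4 : (H - |X|) / (8 * (R ^ 2 + 1) ^ 2) ≤ (H + X) / (8 * (R ^ 2 + 1) ^ 2) :=
    div_le_div_of_nonneg_right (by linarith [neg_abs_le X]) K0.le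
  rw [abs_le]
  constructor <;> linarith

/-- a nested point stays nested at smaller depth -/
theorem Nst.mono {b : ℝ} {P : ℝ → ℂ} {th : ℂ × ℂ → ℂ} {C c₁ h h' y u : ℝ} (hN : A5.Nst H b F P th C c₁ h y u)
    (hC : 0 ≤ C) (h0 : 0 < h') (hh : h' ≤ h) : A5.Nst H b F P th C c₁ h' y u :=
  ⟨h0, by have := hN.hb; have := mul_le_mul_of_nonneg_left hh hC; linarith,
    fun S h1 h2 => hN.mid S h1 (h2.trans_le hh), fun S h1 h2 => hN.nr2 S h1 (h2.trans_le hh)⟩

/-- **nested at one level without R2 points ==> nested point of A5**, uniform constants -/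
theorem nst_of_nest {Λ : ℝ} {q : ℂ → ℂ} (hC : Cv Λ H F q)
    (hp : ∀ x ∈ Sb H, F (x + 1) = F x + 2 * Real.pi) (hv : |v| < H)
    (h0 : ∀ x : ℂ, x.im = v → deriv F x ≠ 0) :
    ∃ C > 0, ∃ c₁ > 0, ∀ {b : ℝ} {P : ℝ → ℂ} {th : ℂ × ℂ → ℂ} {y u : ℝ}, b < (P u).im →
      DifferentiableOn ℂ (fun t => th (t, (u : ℂ))) {t | b < t.im ∧ t.im < (P u).im} →
      (∀ t : ℂ, b < t.im → t.im < (P u).im → th (t, (u : ℂ)) ∈ Sb H) →
      H505.Nest (fun t => th (t, (u : ℂ))) (P u).im H y v →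
      ∃ h > 0, A5.Nst H b F P th C c₁ h y u := by
  obtain ⟨ε, ε0, c, c0, hε, hc⟩ := r2free hC.dF hp hv h0
  have H0 : 0 < H := hC.b0
  set R : ℝ := 100 * (H / ε) ^ 2 with hR
  have R0 : 0 < R := by positivity
  set κ : ℝ := 8 * (R ^ 2 + 1) ^ 2 with hκ
  have κ0 : 0 < κ := by positivity
  have hεH : ε ≤ H := by linarith [abs_nonneg v]
  refine ⟨max R 1, by positivity, min c ((H - |v| - ε) / (κ * H)),
    lt_min c0 (div_pos (by linarith) (by positivity)), ?_⟩
  intro b P th y u hbP hd hm hN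
  obtain ⟨s₀, s00, hs⟩ := hN ε ε0 hεH
  set G : ℝ := (P u).im - b with hG
  have G0 : 0 < G := by linarith
  set h : ℝ := min s₀ (G / (4 * (R ^ 2 + 1) + 2 * max R 1)) with hh
  have M0 : 0 < 4 * (R ^ 2 + 1) + 2 * max R 1 := by positivity
  have hh0 : 0 < h := lt_min s00 (by positivity)
  have hhG : h * (4 * (R ^ 2 + 1) + 2 * max R 1) ≤ G := by
    rw [← le_div_iff₀ M0]
    exact min_le_right _ _
  have mR : R ≤ max R 1 := le_max_left _ _
  have m1 : 1 ≤ max R 1 := le_max_right _ _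
  refine ⟨h, hh0, hh0, ?_, ?_, ?_⟩
  · nlinarith [mul_pos hh0 (by positivity : (0:ℝ) < R ^ 2 + 1)]
  · intro S S0 Sh
    obtain ⟨x, hx, hx2⟩ := hs S ⟨S0, Sh.trans_le (min_le_left _ _)⟩
    have hb2 : b < (P u).im - 2 * ((R ^ 2 + 1) * S) := by
      have : (R ^ 2 + 1) * S ≤ (R ^ 2 + 1) * h := by gcongr
      nlinarith [mul_pos hh0 (by positivity : (0:ℝ) < max R 1),
        mul_pos hh0 (by positivity : (0:ℝ) < R ^ 2 + 1)]
    have h1 := mid_lower hd hm R0.le S0 hx hb2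
    have h2 : |(th ((x : ℂ) + (((P u).im - S : ℝ) : ℂ) * I, (u : ℂ))).im| ≤ |v| + ε := by
      have := abs_sub_abs_le_abs_sub (th ((x : ℂ) + (((P u).im - S : ℝ) : ℂ) * I, (u : ℂ))).im v
      have h3 : |(th ((x : ℂ) + (((P u).im - S : ℝ) : ℂ) * I, (u : ℂ))).im - v| ≤ ε := hx2
      linarith
    have h4 : (H - |v| - ε) / κ ≤
        (H - |(th ((x : ℂ) + (((P u).im - S : ℝ) : ℂ) * I, (u : ℂ))).im|) / κ :=
      div_le_div_of_nonneg_right (by linarith) κ0.le
    have h5 : min c ((H - |v| - ε) / (κ * H)) * H ≤ (H - |v| - ε) / κ := by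
      have : min c ((H - |v| - ε) / (κ * H)) * H ≤ (H - |v| - ε) / (κ * H) * H :=
        mul_le_mul_of_nonneg_right (min_le_right _ _) H0.le
      refine this.trans (le_of_eq ?_)
      field_simp
    have h6 : |(th (A5.vp P y u S)).im| ≤
        H - (H - |(th ((x : ℂ) + (((P u).im - S : ℝ) : ℂ) * I, (u : ℂ))).im|) / κ := h1
    linarith
  · intro S S0 Sh
    obtain ⟨x, hx, hx2⟩ := hs S ⟨S0, Sh.trans_le (min_le_left _ _)⟩
    refine ⟨x, S, ?_, ?_, ?_, (min_le_left _ _).trans (hc _ hx2)⟩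
    · exact hx.trans (by gcongr)
    · nlinarith
    · nlinarith

/-- the same over the world `A5.W5` : at every label of `A` -/
theorem nst_of_W5 {Λ b m : ℝ} {q : ℂ → ℂ} {Ψ : ℂ → ℂ} {Mj Mk B : Set (ℂ × ℂ)} {A : Set ℝ}
    {P : ℝ → ℂ} {c k : ℝ → ℝ} {K y₀ u₀ σ s : ℝ} {al p th : ℂ × ℂ → ℂ} {J : ℂ → ℂ}
    (hv : |v| < H) (h0 : ∀ x : ℂ, x.im = v → deriv F x ≠ 0)
    (W : A5.W5 Λ H F q b m Ψ Mj Mk B A P c k K y₀ u₀ σ s al p th J) :
    ∃ C > 0, ∃ c₁ > 0, ∀ {y' u' : ℝ}, u' ∈ A →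
      H505.Nest (fun t => th (t, (u' : ℂ))) (P u').im H y' v →
      ∃ h > 0, A5.Nst H b F P th C c₁ h y' u' := by
  obtain ⟨C, C0, c₁, c0, h⟩ := nst_of_nest W.crv.cv W.crv.Fp hv h0
  refine ⟨C, C0, c₁, c0, fun {y' u'} hu hN => ?_⟩
  obtain ⟨δ, δ0, hδ⟩ := W.coneU 1 one_pos
  have hmem : ∀ t : ℂ, b < t.im → t.im < (P u').im → (t, (u' : ℂ)) ∈ B := by
    intro t h1 h2
    have := hδ u' hu 0 (by simpa using δ0) t h1 (by simpa using h2)
    simpa using this
  have hM : ∀ t : ℂ, b < t.im → t.im < (P u').im → (t, (u' : ℂ)) ∈ A5.Dm Mj Mk := fun t h1 h2 =>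
    ⟨⟨W.Bj (hmem t h1 h2), W.Bk (hmem t h1 h2)⟩, by
      simp only [mem_setOf_eq]
      exact_mod_cast W.uz u' hu⟩
  refine h (W.hb u' hu) ?_ (fun t h1 h2 => W.mem _ (hM t h1 h2)) hN
  exact W.dth.comp (by fun_prop) fun t ht => hM t ht.1 ht.2

end Vale.Agent.P097.H365.N
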